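import Vale.Agent.P097.H402.Alg.Defs
import Vale.Agent.P097.H65.NZA

/-! # P097 / ALG-LH: the law near a finitely branched end, in two variables

From `NZ.EndH.law0` (helper128): the function `H = Sm (ee N σ R)` is analytic near `(0, 0)`, odd in the
second variable, its coefficients of order `1` and `3` are `0` and `2 / 3`. -/

set_option linter.all false

open Complex Metric Filter Topology Set

namespace Vale.Agent.P097.H166

open Vale.Agent.P097.NZ

variable {N : ℕ} {σ : ℂ} {R : ℂ → ℂ} {ξ : ℂ} {k : ℤ} {ψ₀ ξ₀ : ℂ} {ρ : ℂ → ℂ} {ε : ℝ}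

/-- even coefficients vanish (at all the points of the disc) -/
theorem even_ball (A : RootA) (E : EndH N k R ψ₀ ε) {m : ℕ} (hm : Even m) :
    ∀ ξ ∈ ball (0 : ℂ) ε, ee N (k / N) R m ξ = 0 := by
  have hε := E.hε
  set x : ℂ := ((ε / 2 : ℝ) : ℂ) with hx
  have hx1 : x ∈ ball (0 : ℂ) ε := by
    rw [mem_ball_zero_iff, norm_real, Real.norm_eq_abs, abs_of_pos (by positivity)]
    linarith
  have hx0 : x ≠ 0 := by
    rw [hx]
    exact_mod_cast (by positivity : (ε / 2 : ℝ) ≠ 0)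
  obtain ⟨ρ, C, G⟩ := E.conj hx1 hx0
  have h1 : ∀ᶠ ξ in 𝓝 x, ∀ m : ℕ, Even m → Ik ρ m (ψ₀ + ξ ^ N) = 0 := by
    have hc : Continuous fun ξ : ℂ => ψ₀ + ξ ^ N := by fun_prop
    exact (hc.tendsto x).eventually G.odd
  have h2 : ee N (k / N) R m =ᶠ[𝓝 x] 0 := by
    filter_upwards [h1, C.Ik_eq A, C.hR.continuousAt.eventually_ne C.hR0,
      isOpen_ne.mem_nhds hx0] with ξ g1 g2 g3 g4
    have g5 := g2 m
    rw [g1 m hm, zero_mul] at g5
    have g6 : ξ ^ k * R ξ * ξ ^ (3 * N) ≠ 0 :=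
      mul_ne_zero (mul_ne_zero (zpow_ne_zero k g4) g3) (pow_ne_zero _ g4)
    exact (mul_eq_zero.1 g5.symm).resolve_left g6
  have h3 : AnalyticOnNhd ℂ (ee N (k / N) R m) (ball 0 ε) := fun z hz =>
    ee_an A (E.anR hz) (E.R0 _ hz) m
  intro ξ hξ
  exact h3.eqOn_zero_of_preconnected_of_eventuallyEq_zero
    (convex_ball (0 : ℂ) ε).isPreconnected hx1 h2 hξ

/-! ## first order expansions at `(ξ, 0)` -/

/-- the second projection -/
noncomputable abbrev snd' : ℂ × ℂ →L[ℂ] ℂ := ContinuousLinearMap.snd ℂ ℂ ℂ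

theorem snd_mul_fderiv {g : ℂ × ℂ → ℂ} {c : ℂ} (hg : AnalyticAt ℂ g (ξ, 0)) (hc : g (ξ, 0) = c) :
    HasFDerivAt (fun p : ℂ × ℂ => p.2 * g p) (c • snd') (ξ, 0) := by
  have h1 : HasFDerivAt (fun p : ℂ × ℂ => p.2) snd' (ξ, 0) := hasFDerivAt_snd
  have h2 := h1.mul hg.differentiableAt.hasFDerivAt
  refine h2.congr_fderiv (ContinuousLinearMap.ext fun v => ?_)
  simp [hc]

theorem rr_fderiv (A : RootA) (hR : AnalyticAt ℂ R ξ) (h0 : R ξ ≠ 0) :
    HasFDerivAt (rr N σ R) ((2 : ℂ) • snd') (ξ, 0) := by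
  have h1 := (snd_mul_fderiv (re_an (N := N) (σ := σ) A hR h0) (re_axis A hR h0)).const_add 1
  exact h1

theorem Te_fderiv (A : RootA) (hR : AnalyticAt ℂ R ξ) (h0 : R ξ ≠ 0) :
    HasFDerivAt (fun p => (Te N σ R p).2) snd' (ξ, 0) := by
  have h1 : AnalyticAt ℂ (fun p => (re N σ R p - 1) / rr N σ R p) (ξ, 0) :=
    ((re_an A hR h0).sub analyticAt_const).div (rr_an A hR h0)
      (by rw [rr_axis]; exact one_ne_zero)
  have h2 := snd_mul_fderiv h1 (c := 1) (by rw [re_axis A hR h0, rr_axis]; norm_num)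
  rw [one_smul] at h2
  have h3 : (fun p => (Te N σ R p).2) = fun p : ℂ × ℂ => p.2 * ((re N σ R p - 1) / rr N σ R p) := by
    funext p
    rw [Te_eq]
    simp only [rr]
    ring
  rw [h3]
  exact h2

/-- the derivative of the second component of the iterates, and composition with the iterates -/
theorem iter_fderiv (A : RootA) (hR : AnalyticAt ℂ R ξ) (h0 : R ξ ≠ 0) (j : ℕ) :
    snd'.comp (fderiv ℂ ((Te N σ R)^[j]) (ξ, 0)) = snd' := by
  have hA : ∀ j, HasFDerivAt ((Te N σ R)^[j]) (fderiv ℂ ((Te N σ R)^[j]) (ξ, 0)) (ξ, 0) :=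
    fun j => (Te_iter_an A hR h0 j).differentiableAt.hasFDerivAt
  induction j with
  | zero =>
    rw [Function.iterate_zero, fderiv_id]
    rfl
  | succ j ih =>
    have h1 : HasFDerivAt (fun p => ((Te N σ R)^[j + 1] p).2)
        (snd'.comp (fderiv ℂ ((Te N σ R)^[j + 1]) (ξ, 0))) (ξ, 0) :=
      HasFDerivAt.comp (ξ, 0) (hasFDerivAt_snd (𝕜 := ℂ)) (hA (j + 1))
    have h2 : HasFDerivAt (fun p => ((Te N σ R)^[j + 1] p).2)
        (snd'.comp (fderiv ℂ ((Te N σ R)^[j]) (ξ, 0))) (ξ, 0) := by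
      have h3 : HasFDerivAt (fun p => (Te N σ R p).2) snd' ((Te N σ R)^[j] (ξ, 0)) := by
        rw [Te_iter_axis]
        exact Te_fderiv A hR h0
      have h4 := HasFDerivAt.comp (ξ, 0) h3 (hA j)
      have h5 : (fun p => ((Te N σ R)^[j + 1] p).2) =
          (fun p => (Te N σ R p).2) ∘ (Te N σ R)^[j] := by
        funext p
        rw [Function.iterate_succ', Function.comp_apply, Function.comp_apply]
      rw [h5]
      exact h4
    rw [h1.unique h2, ih]

theorem ww_fderiv (A : RootA) (hR : AnalyticAt ℂ R ξ) (h0 : R ξ ≠ 0) (j : ℕ) :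
    HasFDerivAt (ww N σ R j) ((2 * j : ℂ) • snd') (ξ, 0) := by
  induction j with
  | zero =>
    have h1 : ww N σ R 0 = fun _ => 1 := rfl
    rw [h1]
    exact (hasFDerivAt_const (1 : ℂ) ((ξ, 0) : ℂ × ℂ)).congr_fderiv
      (ContinuousLinearMap.ext fun v => by simp)
  | succ j ih =>
    have h3 : HasFDerivAt (rr N σ R) ((2 : ℂ) • snd') ((Te N σ R)^[j] (ξ, 0)) := by
      rw [Te_iter_axis]
      exact rr_fderiv A hR h0
    have h4 := HasFDerivAt.comp (ξ, 0) h3 (Te_iter_an (N := N) (σ := σ) A hR h0 j).differentiableAt.hasFDerivAt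
    have h5 := ih.mul h4
    refine HasFDerivAt.congr_fderiv h5 ?_
    rw [Function.comp_apply, Te_iter_axis, rr_axis, ww_axis, ContinuousLinearMap.smul_comp,
      iter_fderiv A hR h0]
    refine ContinuousLinearMap.ext fun v => ?_
    simp only [ContinuousLinearMap.add_apply, ContinuousLinearMap.smul_apply, smul_eq_mul]
    push_cast
    ring

theorem ww_slice' (A : RootA) (hR : AnalyticAt ℂ R ξ) (h0 : R ξ ≠ 0) (j : ℕ) :
    HasDerivAt (fun y => ww N σ R j (ξ, y)) (2 * j) 0 := by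
  have h1 : HasDerivAt (fun y : ℂ => ((ξ, y) : ℂ × ℂ)) (0, 1) 0 :=
    (hasDerivAt_const (0 : ℂ) ξ).prodMk (hasDerivAt_id (0 : ℂ))
  have h2 := HasFDerivAt.comp_hasDerivAt (0 : ℂ) (ww_fderiv (N := N) (σ := σ) A hR h0 j) h1
  refine HasDerivAt.congr_deriv h2 ?_
  simp

theorem ee_one' : ee N σ R 1 ξ = 0 := by
  simp [ee, tc, Wf]

theorem ee_three' (A : RootA) (hR : AnalyticAt ℂ R ξ) (h0 : R ξ ≠ 0) :
    ee N σ R 3 ξ = 2 / 3 := by
  set D : ℂ → ℂ := fun y => Dh N σ R 3 (ξ, y) with hD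
  have hDan : AnalyticAt ℂ D 0 := analyticAt_pair2 (Dh_an A hR h0 3)
  have hD' : HasDerivAt D 2 0 := by
    have := NF_hasDerivAt (m := 3) fun j => ww_slice' (N := N) (σ := σ) A hR h0 j
    rw [NF_three] at this
    exact this
  have hD0 : D 0 = 0 := by
    rw [hD]
    simp only [Dh]
    have : (fun j => ww N σ R j (ξ, 0)) = fun _ => 1 := funext fun j => ww_axis j
    rw [this, NF_const]
  set S : ℂ → ℂ := fun y => snc (y * ξ ^ N) with hS
  have hSan : AnalyticAt ℂ S 0 := by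
    refine (snc_an _).comp_of_eq (analyticAt_id.mul analyticAt_const) rfl
  have hS0 : S 0 = 1 := by
    rw [hS]
    simp only [zero_mul]
    exact snc_zero
  set G : ℂ → ℂ := fun y => S y * D y with hG
  have hGan : AnalyticAt ℂ G 0 := hSan.mul hDan
  have hG' : HasDerivAt G 2 0 := by
    have h1 := hSan.differentiableAt.hasDerivAt.mul hD'
    refine HasDerivAt.congr_deriv h1 ?_
    rw [hD0, hS0]
    ring
  have h1 : (fun δ : ℂ => Wf N σ R 3 (ξ, δ)) = fun δ => δ * G δ := by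
    funext δ
    simp only [Wf, hG, hD, hS]
    ring
  have h2 : deriv (fun δ => δ * G δ) =ᶠ[𝓝 0] fun δ => G δ + δ * deriv G δ := by
    filter_upwards [hGan.eventually_analyticAt] with δ hδ
    have := (hasDerivAt_id δ).mul hδ.differentiableAt.hasDerivAt
    have h3 := this.deriv
    simp only [id, one_mul] at h3
    exact h3
  have h3 : HasDerivAt (fun δ => G δ + δ * deriv G δ) (2 + (1 * deriv G 0 + 0 * deriv (deriv G) 0))
      0 := hG'.add ((hasDerivAt_id (0 : ℂ)).mul hGan.deriv.differentiableAt.hasDerivAt)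
  have h4 : iteratedDeriv 2 (fun δ : ℂ => Wf N σ R 3 (ξ, δ)) 0 = 4 := by
    rw [h1, iteratedDeriv_succ, iteratedDeriv_one, h2.deriv_eq, h3.deriv, hG'.deriv]
    norm_num
  rw [ee, tc, h4]
  norm_num [Nat.factorial]

/-- ALG-LH, relative to the analyticity of the root -/
theorem lawH0_of (A : RootA) : Alg.LawH0 := by
  intro N k R ψ₀ ε E
  have hε := E.hε
  obtain ⟨C, B, hB, hC, hb⟩ := E.geo0 A
  have hball : ∀ᶠ ξ in 𝓝 (0 : ℂ), ξ ∈ ball (0 : ℂ) (ε / 2) := ball_mem_nhds _ (by positivity)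
  have hsub : ball (0 : ℂ) (ε / 2) ⊆ ball 0 ε := ball_subset_ball (by linarith)
  refine ⟨Sm (ee N (k / N) R), ?_, ?_, ?_, E.law0 A⟩
  · obtain ⟨s, hs, hsε, hd⟩ := E.Sm_diff A
    exact Hol.analyticAt_of_differentiableOn (isOpen_ball.prod isOpen_ball) hd
      ⟨mem_ball_self hs, mem_ball_self hs⟩
  · have h1 : ∀ᶠ p in 𝓝 ((0, 0) : ℂ × ℂ), p.1 ∈ ball (0 : ℂ) (ε / 2) :=
      (continuous_fst.tendsto ((0, 0) : ℂ × ℂ)).eventually hball
    filter_upwards [h1] with p hp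
    simp only [Sm]
    rw [← tsum_neg]
    congr 1
    funext m
    rcases Nat.even_or_odd m with hm | hm
    · rw [even_ball A E hm _ (hsub hp)]; simp
    · rw [hm.neg_pow]; ring
  · filter_upwards [hball] with ξ hξ
    have h1 : ∀ m, iteratedDeriv m (fun η => Sm (ee N (k / N) R) (ξ, η)) 0 =
        m.factorial * ee N (k / N) R m ξ := by
      intro m
      have h2 := tc_Sm (u := ee N (k / N) R) hB (fun m => hb ξ hξ m) m
      rw [tc, div_eq_iff (by exact_mod_cast m.factorial_ne_zero)] at h2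
      rw [h2, mul_comm]
    refine ⟨?_, ?_⟩
    · rw [h1, ee_one', mul_zero]
    · rw [h1, ee_three' A (E.anR (hsub hξ)) (E.R0 _ (hsub hξ))]
      norm_num [Nat.factorial]

/-- ALG-LH -/
theorem lawH0 : Alg.LawH0 := lawH0_of H65.rootA

end Vale.Agent.P097.H166
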